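import Vale.Agent.Lib.P061.TreeDepth

namespace Vale.Agent.Results.P061.B_treedepth

open Vale.Agent.Lib.P061

private lemma thin_of_bound {V E : Type} [Fintype E] (G : Multigraph V E) {k : ℕ} (hk : 1 ≤ k)
    {D : ℕ} {T : Finset E}
    (h : ∀ S : Set V, k * G.cutCount T S ≤ D ^ 2 * G.cutCount Finset.univ S) :
    G.IsThin T (((D : ℝ)) ^ 2 / k) := by
  intro S _ _
  have hk0 : (0 : ℝ) < k := by exact_mod_cast hk
  rw [div_mul_eq_mul_div, le_div_iff₀ hk0]
  have := h S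
  have h2 : ((k * G.cutCount T S : ℕ) : ℝ) ≤ ((D ^ 2 * G.cutCount Finset.univ S : ℕ) : ℝ) := by
    exact_mod_cast this
  push_cast at h2
  linarith

/-- Thin spanning trees for bounded tree-depth, and for bounded vertex cover. -/
theorem result {V E : Type} [Fintype V] [Fintype E] [Nonempty V] (G : Multigraph V E)
    (k : ℕ) (hk : 1 ≤ k) (hconn : G.EdgeConnected k) :
    (∀ D : ℕ, G.TreeDepthLE (D + 1) Finset.univ →
      ∃ T : Finset E, G.IsSpanningTree T ∧ G.IsThin T (((D : ℝ)) ^ 2 / k)) ∧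
    (∀ C : Finset V, (∀ e, G.fst e ∈ C ∨ G.snd e ∈ C) →
      ∃ T : Finset E, G.IsSpanningTree T ∧ G.IsThin T (((C.card : ℝ)) ^ 2 / k)) := by
  have key : ∀ D : ℕ, G.TreeDepthLE (D + 1) Finset.univ →
      ∃ T : Finset E, G.IsSpanningTree T ∧ G.IsThin T (((D : ℝ)) ^ 2 / k) := by
    intro D hD
    obtain ⟨T, hT, hth⟩ := exists_thin_tree G hk hconn hD
    exact ⟨T, hT, thin_of_bound G hk hth⟩
  exact ⟨key, fun C hC => key C.card (treeDepth_of_cover G C hC)⟩

end Vale.Agent.Results.P061.B_treedepth
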