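import Vale.Agent.Lib.P061.Apex

namespace Vale.Agent.Results.P061.C_feedback

open Vale.Agent.Lib.P061

/-- A `k`-edge-connected multigraph with a vertex set `X` such that `G - X` is a forest
has a spanning tree of thinness `(7 |X| + 18) / k`. -/
theorem result {V E : Type} [Fintype V] [Fintype E] [Nonempty V] (G : Multigraph V E)
    (k : ℕ) (hk : 1 ≤ k) (hconn : G.EdgeConnected k) (X : Finset V) (par : V → V) (rk : V → ℕ)
    (hX : G.ForestOff X par rk) :
    ∃ T : Finset E, G.IsSpanningTree T ∧ G.IsThin T (((7 * X.card + 18 : ℕ) : ℝ) / k) := by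
  obtain ⟨T, hT, hth⟩ := exists_thin_of_apex G hk hconn X par rk hX
  refine ⟨T, hT, fun S hS hS' => ?_⟩
  have hk0 : (0 : ℝ) < k := by exact_mod_cast hk
  rw [div_mul_eq_mul_div, le_div_iff₀ hk0]
  have h2 : ((k * G.cutCount T S : ℕ) : ℝ) ≤
      (((7 * X.card + 18) * G.cutCount Finset.univ S : ℕ) : ℝ) := by
    exact_mod_cast hth S hS hS'
  push_cast at h2 ⊢
  linarith

end Vale.Agent.Results.P061.C_feedback
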