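import Vale.Agent.Lib.P061.Pathwidth

namespace Vale.Agent.Results.P061.D_pathwidth

open Vale.Agent.Lib.P061

/-- A `k`-edge-connected multigraph with a path decomposition with bags of size at most `W`
has a spanning tree of thinness `W ^ 2 * (6 * W + 2) ^ 2 / k`. -/
theorem result {V E : Type} [Fintype V] [Fintype E] [Nonempty V] (G : Multigraph V E)
    (k W : ℕ) (hk : 1 ≤ k) (hconn : G.EdgeConnected k) (L U : V → ℕ) (hP : G.PathDec W L U) :
    ∃ T : Finset E, G.IsSpanningTree T ∧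
      G.IsThin T (((W ^ 2 * (6 * W + 2) ^ 2 : ℕ) : ℝ) / k) := by
  obtain ⟨T, hT, hth⟩ := exists_thin_pathwidth G hk hconn L U hP
  refine ⟨T, hT, fun S _ _ => ?_⟩
  have hk0 : (0 : ℝ) < k := by exact_mod_cast hk
  rw [div_mul_eq_mul_div, le_div_iff₀ hk0]
  have h2 : ((k * G.cutCount T S : ℕ) : ℝ) ≤
      ((W ^ 2 * (6 * W + 2) ^ 2 * G.cutCount Finset.univ S : ℕ) : ℝ) := by
    exact_mod_cast hth S
  push_cast at h2 ⊢
  linarith

end Vale.Agent.Results.P061.D_pathwidth
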