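import Vale.Agent.Results.P061.A_lower
import Vale.Agent.Results.P061.B_treedepth
import Vale.Agent.Results.P061.C_feedback
import Vale.Agent.Results.P061.D_pathwidth

namespace Vale.Agent.Results.P061.A00_master

open Vale.Agent.Lib.P061

/-- The strong thin tree conjecture: the lower bound `C ≥ 4` on its constant (with explicit
multigraphs), and thin spanning trees for bounded tree-depth, bounded vertex cover, bounded
feedback vertex number and bounded pathwidth. -/
theorem result :
    (∀ m r p : ℕ, 1 ≤ m → 1 ≤ r →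
      ∃ (V E : Type) (_ : Fintype V) (_ : Fintype E) (G : Multigraph V E),
        Fintype.card V = m + 1 + p ∧ G.EdgeConnected (r * m) ∧
        ∀ T : Finset E, G.IsSpanningTree T → ∀ α : ℝ, G.IsThin T α →
          (m : ℝ) / ((r : ℝ) * (((m + 1) ^ 2 / 4 : ℕ) : ℝ)) ≤ α) ∧
    (∀ C : ℝ,
      (∀ k : ℕ, 1 ≤ k → ∀ (V E : Type) [Fintype V] [Fintype E] (G : Multigraph V E),
        2 ≤ Fintype.card V → G.EdgeConnected k →
        ∃ T : Finset E, G.IsSpanningTree T ∧ G.IsThin T (C / k)) →
      4 ≤ C) ∧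
    (∀ (V E : Type) [Fintype V] [Fintype E] [Nonempty V] (G : Multigraph V E)
      (k : ℕ), 1 ≤ k → G.EdgeConnected k →
      (∀ D : ℕ, G.TreeDepthLE (D + 1) Finset.univ →
        ∃ T : Finset E, G.IsSpanningTree T ∧ G.IsThin T (((D : ℝ)) ^ 2 / k)) ∧
      (∀ C : Finset V, (∀ e, G.fst e ∈ C ∨ G.snd e ∈ C) →
        ∃ T : Finset E, G.IsSpanningTree T ∧ G.IsThin T (((C.card : ℝ)) ^ 2 / k)) ∧
      (∀ (X : Finset V) (par : V → V) (rk : V → ℕ), G.ForestOff X par rk →
        ∃ T : Finset E, G.IsSpanningTree T ∧ G.IsThin T (((7 * X.card + 18 : ℕ) : ℝ) / k)) ∧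
      (∀ (W : ℕ) (L U : V → ℕ), G.PathDec W L U →
        ∃ T : Finset E, G.IsSpanningTree T ∧
          G.IsThin T (((W ^ 2 * (6 * W + 2) ^ 2 : ℕ) : ℝ) / k))) :=
  ⟨Vale.Agent.Results.P061.A_lower.result.1, Vale.Agent.Results.P061.A_lower.result.2,
    fun _ _ _ _ _ G k hk hconn =>
      ⟨(Vale.Agent.Results.P061.B_treedepth.result G k hk hconn).1,
       (Vale.Agent.Results.P061.B_treedepth.result G k hk hconn).2,
       fun X par rk hX => Vale.Agent.Results.P061.C_feedback.result G k hk hconn X par rk hX,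
       fun W L U hP => Vale.Agent.Results.P061.D_pathwidth.result G k W hk hconn L U hP⟩⟩

end Vale.Agent.Results.P061.A00_master
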