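import Vale.Agent.Results.P061.A_lower
import Vale.Agent.Results.P061.B_treedepth

namespace Vale.Agent.Results.P061.A0_master

open Vale.Agent.Lib.P061

/-- The strong thin tree conjecture: the lower bound `C ≥ 4` on its constant (with explicit
multigraphs), and thin spanning trees for bounded tree-depth and bounded vertex cover. -/
theorem result :
    (∀ m r p : ℕ, 1 ≤ m → 1 ≤ r →
      ∃ (V E : Type) (_ : Fintype V) (_ : Fintype E) (G : Multigraph V E),
        Fintype.card V = m + 1 + p ∧ G.EdgeConnected (r * m) ∧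
        ∀ T : Finset E, G.IsSpanningTree T → ∀ α : ℝ, G.IsThin T α →
          (m : ℝ) / ((r : ℝ) * (((m + 1) ^ 2 / 4 : ℕ) : ℝ)) ≤ α) ∧
    (∀ C : ℝ,
      (∀ k : ℕ, 1 ≤ k → ∀ (V E : Type) [Fintype V] [Fintype E] (G : Multigraph V E),
        2 ≤ Fintype.card V → G.EdgeConnected k →
        ∃ T : Finset E, G.IsSpanningTree T ∧ G.IsThin T (C / k)) →
      4 ≤ C) ∧
    (∀ (V E : Type) [Fintype V] [Fintype E] [Nonempty V] (G : Multigraph V E)
      (k : ℕ), 1 ≤ k → G.EdgeConnected k →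
      (∀ D : ℕ, G.TreeDepthLE (D + 1) Finset.univ →
        ∃ T : Finset E, G.IsSpanningTree T ∧ G.IsThin T (((D : ℝ)) ^ 2 / k)) ∧
      (∀ C : Finset V, (∀ e, G.fst e ∈ C ∨ G.snd e ∈ C) →
        ∃ T : Finset E, G.IsSpanningTree T ∧ G.IsThin T (((C.card : ℝ)) ^ 2 / k))) :=
  ⟨Vale.Agent.Results.P061.A_lower.result.1, Vale.Agent.Results.P061.A_lower.result.2,
    fun _ _ _ _ _ G k hk hconn => Vale.Agent.Results.P061.B_treedepth.result G k hk hconn⟩

end Vale.Agent.Results.P061.A0_master
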