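import Vale.Agent.Lib.P061.Complete

namespace Vale.Agent.Results.P061.A_lower

open Vale.Agent.Lib.P061

private lemma tail_bound (C : ℝ) (h : ∀ k : ℕ, 1 ≤ k → 4 - 8 / ((k : ℝ) + 1) ≤ C) : 4 ≤ C := by
  by_contra hcon
  have hpos : 0 < 4 - C := by linarith [not_le.mp hcon]
  obtain ⟨K, hK⟩ := exists_nat_gt (8 / (4 - C))
  have hK1 := h (K + 1) (by omega)
  have hKpos : (0 : ℝ) < ((K + 1 : ℕ) : ℝ) + 1 := by positivity
  have hlt : 8 / (((K + 1 : ℕ) : ℝ) + 1) < 4 - C := by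
    rw [div_lt_iff₀ hKpos]
    rw [div_lt_iff₀ hpos] at hK
    push_cast
    nlinarith
  linarith

/-- Lower bound of `4` for the constant in the strong thin tree conjecture. -/
theorem result :
    (∀ m r p : ℕ, 1 ≤ m → 1 ≤ r →
      ∃ (V E : Type) (_ : Fintype V) (_ : Fintype E) (G : Multigraph V E),
        Fintype.card V = m + 1 + p ∧ G.EdgeConnected (r * m) ∧
        ∀ T : Finset E, G.IsSpanningTree T → ∀ α : ℝ, G.IsThin T α →
          (m : ℝ) / ((r : ℝ) * (((m + 1) ^ 2 / 4 : ℕ) : ℝ)) ≤ α) ∧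
    (∀ C : ℝ,
      (∀ k : ℕ, 1 ≤ k → ∀ (V E : Type) [Fintype V] [Fintype E] (G : Multigraph V E),
        2 ≤ Fintype.card V → G.EdgeConnected k →
        ∃ T : Finset E, G.IsSpanningTree T ∧ G.IsThin T (C / k)) →
      4 ≤ C) := by
  constructor
  · intro m r p hm hr
    refine ⟨_, _, inferInstance, inferInstance, KP m r p (r * m), ?_, KP_edgeConnected m r p hm, ?_⟩
    · simp
    · intro T hT α hα
      exact KP_thin_lower m r p (r * m) hm hr T hT α hα
  · intro C hC
    apply tail_bound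
    intro k hk
    have hE : (KP k 1 0 (1 * k)).EdgeConnected k := by
      have := KP_edgeConnected k 1 0 hk
      simpa using this
    obtain ⟨T, hT, hth⟩ := hC k hk _ _ (KP k 1 0 (1 * k)) (by simp; omega) hE
    have hlow := KP_thin_lower k 1 0 (1 * k) hk le_rfl T hT _ hth
    have hk0 : (0 : ℝ) < k := by exact_mod_cast hk
    have hk1 : (0 : ℝ) < (k : ℝ) + 1 := by positivity
    -- the floor is at most the real quotient
    have hF : (((k + 1) ^ 2 / 4 : ℕ) : ℝ) ≤ ((k : ℝ) + 1) ^ 2 / 4 := by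
      have := @Nat.cast_div_le ℝ _ _ _ ((k + 1) ^ 2) 4
      push_cast at this
      exact this
    have hFpos : (0 : ℝ) < (((k + 1) ^ 2 / 4 : ℕ) : ℝ) := by
      have : 0 < (k + 1) ^ 2 / 4 := by
        apply Nat.div_pos _ (by norm_num)
        nlinarith
      exact_mod_cast this
    simp only [Nat.cast_one, one_mul] at hlow
    rw [div_le_iff₀ hFpos, div_mul_eq_mul_div, le_div_iff₀ hk0] at hlow
    -- now `k * k ≤ C * F`
    have hCpos : 0 < C := by
      by_contra hneg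
      have : C * (((k + 1) ^ 2 / 4 : ℕ) : ℝ) ≤ 0 :=
        mul_nonpos_of_nonpos_of_nonneg (not_lt.mp hneg) hFpos.le
      nlinarith
    have h1 : (k : ℝ) * k ≤ C * (((k : ℝ) + 1) ^ 2 / 4) :=
      hlow.trans (mul_le_mul_of_nonneg_left hF hCpos.le)
    have h2 : 4 - 8 / ((k : ℝ) + 1) = (4 * ((k : ℝ) + 1) - 8) / ((k : ℝ) + 1) := by
      field_simp
    rw [h2, div_le_iff₀ hk1]
    by_contra hcon
    have hcon' := not_le.mp hcon
    have h3 : C * ((k : ℝ) + 1) * ((k : ℝ) + 1) <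
        (4 * ((k : ℝ) + 1) - 8) * ((k : ℝ) + 1) := mul_lt_mul_of_pos_right hcon' hk1
    nlinarith

end Vale.Agent.Results.P061.A_lower
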